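import Vale.Agent.P345.Prim
import Vale.Agent.P345.Export

namespace Vale.Agent.Results.P345.A_full

theorem result (n : ℕ) (S : Set (Fin n → ℕ)) (hS : REPred (fun a => a ∈ S)) :
    ∃ (m : ℕ) (P : MvPolynomial (Fin n ⊕ Fin m) ℤ),
      (∀ a : Fin n → ℕ, a ∈ S ↔ ∃ w : Fin m → ℕ,
        MvPolynomial.eval (Sum.elim (fun i => (a i : ℤ)) (fun j => (w j : ℤ))) P = 0) ∧
      ∀ a : Fin n → ℕ, Set.Subsingleton {w : Fin m → ℕ |
        MvPolynomial.eval (Sum.elim (fun i => (a i : ℤ)) (fun j => (w j : ℤ))) P = 0} :=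
  Vale.Agent.P345.SF.toPoly (Vale.Agent.P345.SF_of_re hS)

end Vale.Agent.Results.P345.A_full
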