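import Vale.Agent.P345.Pow
import Vale.Agent.P345.Export

namespace Vale.Agent.Results.P345.B_exp

theorem result : ∃ (m : ℕ) (P : MvPolynomial (Fin 3 ⊕ Fin m) ℤ),
    (∀ a : Fin 3 → ℕ, a 0 = a 1 ^ a 2 ↔ ∃ w : Fin m → ℕ,
      MvPolynomial.eval (Sum.elim (fun i => (a i : ℤ)) (fun j => (w j : ℤ))) P = 0) ∧
    ∀ a : Fin 3 → ℕ, Set.Subsingleton {w : Fin m → ℕ |
      MvPolynomial.eval (Sum.elim (fun i => (a i : ℤ)) (fun j => (w j : ℤ))) P = 0} :=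
  Vale.Agent.P345.SF.toPoly (p := fun a : Fin 3 → ℕ => a 0 = a 1 ^ a 2) inferInstance

end Vale.Agent.Results.P345.B_exp
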